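import Mathlib

/-!
P298, route of helper680 (note 5187), block S1-GEO, row R6 (GENERIC), helper217.

`G t`, `H t` homogeneous in `z`, `{G t = 0}` smooth.  For almost every coefficient
matrix `a` the section `H + ∑ a b i z_b^(n-1) z_i` cuts `{G t = 0}` transversally, except
for `t` in a discrete set.  Proof: Sard's lemma in fixed dimension.
-/

namespace Vale.Agent.P298.H217.Gen

open Complex Metric Set Filter MeasureTheory Topology

variable {N : ℕ}

/-- partial derivative in the space direction -/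
noncomputable def dz (F : ℂ × (Fin N → ℂ) → ℂ) (p : ℂ × (Fin N → ℂ)) (v : Fin N → ℂ) : ℂ :=
  fderiv ℂ F p (0, v)

/-- the perturbation -/
noncomputable def pert (n : ℕ) (a : Fin N → Fin N → ℂ) (z : Fin N → ℂ) : ℂ :=
  ∑ b, ∑ i, a b i * z b ^ (n - 1) * z i

/-- its derivative -/
noncomputable def dpert (n : ℕ) (a : Fin N → Fin N → ℂ) (z v : Fin N → ℂ) : ℂ :=
  ∑ b, ∑ i, a b i * (((n - 1 : ℕ) : ℂ) * z b ^ (n - 1 - 1) * v b * z i + z b ^ (n - 1) * v i)

/-- the perturbed section -/
noncomputable def Ha (H : ℂ × (Fin N → ℂ) → ℂ) (n : ℕ) (a : Fin N → Fin N → ℂ) :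
    ℂ × (Fin N → ℂ) → ℂ := fun p => H p + pert n a p.2

/-- bad points: zeros of both functions where the two differentials are dependent -/
def BadAt (G H : ℂ × (Fin N → ℂ) → ℂ) (n : ℕ) (a : Fin N → Fin N → ℂ)
    (p : ℂ × (Fin N → ℂ)) : Prop :=
  G p = 0 ∧ Ha H n a p = 0 ∧
    ∀ v w, dz (Ha H n a) p v * dz G p w = dz (Ha H n a) p w * dz G p v

theorem hasFDerivAt_pert (n : ℕ) (a : Fin N → Fin N → ℂ) (z : Fin N → ℂ) :
    DifferentiableAt ℂ (pert n a) z ∧ ∀ v, fderiv ℂ (pert n a) z v = dpert n a z v := by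
  have h : HasFDerivAt (pert n a) (∑ b, ∑ i, a b i •
      ((z i * (((n - 1 : ℕ) : ℂ) * z b ^ (n - 1 - 1))) •
        (ContinuousLinearMap.proj b : (Fin N → ℂ) →L[ℂ] ℂ) + z b ^ (n - 1) •
        (ContinuousLinearMap.proj i : (Fin N → ℂ) →L[ℂ] ℂ))) z := by
    unfold pert
    refine HasFDerivAt.fun_sum fun b _ => HasFDerivAt.fun_sum fun i _ => ?_
    have h1 : HasFDerivAt (fun z : Fin N → ℂ => z b ^ (n - 1))
        ((((n - 1 : ℕ) : ℂ) * z b ^ (n - 1 - 1)) •
          (ContinuousLinearMap.proj b : (Fin N → ℂ) →L[ℂ] ℂ)) z := by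
      have h2 := (hasDerivAt_pow (n - 1) (z b)).comp_hasFDerivAt z
        (ContinuousLinearMap.proj b : (Fin N → ℂ) →L[ℂ] ℂ).hasFDerivAt
      exact h2
    have h2 : HasFDerivAt (fun z : Fin N → ℂ => z i)
        (ContinuousLinearMap.proj i : (Fin N → ℂ) →L[ℂ] ℂ) z :=
      (ContinuousLinearMap.proj i : (Fin N → ℂ) →L[ℂ] ℂ).hasFDerivAt
    have h3 := (h1.mul h2).const_mul (a b i)
    refine (h3.congr_fderiv ?_).congr_of_eventuallyEq (Eventually.of_forall fun w => ?_)
    · ext v; simp; ring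
    · simp only [Pi.mul_apply]; ring
  refine ⟨h.differentiableAt, fun v => ?_⟩
  rw [h.fderiv]
  unfold dpert
  simp only [sum_apply, smul_apply, add_apply, ContinuousLinearMap.proj_apply, smul_eq_mul]
  refine Finset.sum_congr rfl fun b _ => Finset.sum_congr rfl fun i _ => ?_
  ring

theorem dz_Ha {H : ℂ × (Fin N → ℂ) → ℂ} {n : ℕ} {a : Fin N → Fin N → ℂ}
    {p : ℂ × (Fin N → ℂ)} (hH : DifferentiableAt ℂ H p) (v : Fin N → ℂ) :
    dz (Ha H n a) p v = dz H p v + dpert n a p.2 v := by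
  unfold dz Ha
  have h1 : DifferentiableAt ℂ (fun q : ℂ × (Fin N → ℂ) => pert n a q.2) p :=
    (hasFDerivAt_pert n a p.2).1.comp p differentiableAt_snd
  have h2 : HasFDerivAt (fun q : ℂ × (Fin N → ℂ) => pert n a q.2)
      ((fderiv ℂ (pert n a) p.2).comp (ContinuousLinearMap.snd ℂ ℂ (Fin N → ℂ))) p :=
    (hasFDerivAt_pert n a p.2).1.hasFDerivAt.comp p hasFDerivAt_snd
  rw [fderiv_fun_add hH h1, h2.fderiv]
  simp [(hasFDerivAt_pert n a p.2).2]

theorem pert_add (n : ℕ) (a b : Fin N → Fin N → ℂ) (z : Fin N → ℂ) :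
    pert n (a + b) z = pert n a z + pert n b z := by
  unfold pert
  simp only [Pi.add_apply, ← Finset.sum_add_distrib]
  refine Finset.sum_congr rfl fun b _ => Finset.sum_congr rfl fun i _ => ?_
  ring

theorem dpert_add (n : ℕ) (a b : Fin N → Fin N → ℂ) (z v : Fin N → ℂ) :
    dpert n (a + b) z v = dpert n a z v + dpert n b z v := by
  unfold dpert
  simp only [Pi.add_apply, ← Finset.sum_add_distrib]
  refine Finset.sum_congr rfl fun b _ => Finset.sum_congr rfl fun i _ => ?_
  ring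

theorem update_eq_add (a : Fin N → Fin N → ℂ) (b : Fin N) :
    a = Function.update a b 0 + Pi.single b (a b) := by
  ext i j
  by_cases h : i = b
  · subst h; simp
  · simp [h]

theorem pert_single (n : ℕ) (b : Fin N) (c : Fin N → ℂ) (z : Fin N → ℂ) (hz : z b = 1) :
    pert n (Pi.single b c) z = ∑ i, c i * z i := by
  unfold pert
  rw [Finset.sum_eq_single b]
  · simp [hz]
  · intro b' _ hb'
    simp [hb']
  · simp

theorem dpert_single (n : ℕ) (b i : Fin N) (c : Fin N → ℂ) (z : Fin N → ℂ) (hz : z b = 1)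
    (hi : i ≠ b) : dpert n (Pi.single b c) z (Pi.single i 1) = c i := by
  unfold dpert
  rw [Finset.sum_eq_single b]
  · simp only [Pi.single_eq_same, hz, one_pow, mul_one, one_mul]
    have : (Pi.single i 1 : Fin N → ℂ) b = 0 := by simp [hi.symm]
    simp only [this, mul_zero, zero_mul, zero_add]
    rw [Finset.sum_eq_single i]
    · simp
    · intro j _ hj; simp [hj]
    · simp
  · intro b' _ hb'
    simp [hb']
  · simp

/-! ### the local Sard map -/

section local_map

variable (G H : ℂ × (Fin N → ℂ) → ℂ) (n : ℕ) (b c : Fin N)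
  (χ : ℂ × (Fin N → ℂ) → ℂ × (Fin N → ℂ))

/-- parameters of the point -/
noncomputable def pq (α : Fin N → Fin N → ℂ) : ℂ × (Fin N → ℂ) :=
  (α b b, fun i => if i = b then 1 else if i = c then 0 else α b i)

/-- the coefficients -/
noncomputable def vv (α : Fin N → Fin N → ℂ) (i : Fin N) : ℂ :=
  α b c * dz G (χ (pq b c α)) (Pi.single i 1) -
    (dz H (χ (pq b c α)) (Pi.single i 1) +
      dpert n (Function.update α b 0) (χ (pq b c α)).2 (Pi.single i 1))

/-- the map to which Sard's lemma is applied -/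
noncomputable def fmap (α : Fin N → Fin N → ℂ) : Fin N → Fin N → ℂ :=
  Function.update α b (fun i => if i = b then
    -(H (χ (pq b c α)) + pert n (Function.update α b 0) (χ (pq b c α)).2) -
      ∑ j ∈ Finset.univ.erase b, vv G H n b c χ α j * (χ (pq b c α)).2 j
    else vv G H n b c χ α i)

end local_map

theorem differentiable_pq (b c : Fin N) : Differentiable ℂ (pq b c) := by
  unfold pq
  refine Differentiable.prodMk (by fun_prop) ?_
  rw [differentiable_pi]
  intro i
  split_ifs <;> fun_prop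

theorem differentiable_upd (b : Fin N) :
    Differentiable ℂ (fun α : Fin N → Fin N → ℂ => Function.update α b (0 : Fin N → ℂ)) := by
  rw [differentiable_pi]
  intro i
  by_cases h : i = b
  · subst h; simp
  · simp only [ne_eq, h, not_false_eq_true, Function.update_of_ne]; fun_prop

theorem differentiable_pert (n : ℕ) :
    Differentiable ℂ (fun p : (Fin N → Fin N → ℂ) × (Fin N → ℂ) => pert n p.1 p.2) := by
  unfold pert
  fun_prop

theorem differentiable_dpert (n : ℕ) (v : Fin N → ℂ) :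
    Differentiable ℂ (fun p : (Fin N → Fin N → ℂ) × (Fin N → ℂ) => dpert n p.1 p.2 v) := by
  unfold dpert
  fun_prop

theorem differentiableAt_dz {F : ℂ × (Fin N → ℂ) → ℂ} {p : ℂ × (Fin N → ℂ)}
    (hF : AnalyticAt ℂ F p) (v : Fin N → ℂ) : DifferentiableAt ℂ (fun q => dz F q v) p := by
  unfold dz
  exact (hF.fderiv.differentiableAt).clm_apply (differentiableAt_const _)

theorem differentiableAt_comp_pq {F : Type*} [NormedAddCommGroup F] [NormedSpace ℂ F] {b c : Fin N}
    {χ : ℂ × (Fin N → ℂ) → F} {α : Fin N → Fin N → ℂ}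
    (hχ : DifferentiableAt ℂ χ (pq b c α)) : DifferentiableAt ℂ (fun α => χ (pq b c α)) α :=
  DifferentiableAt.comp (g := χ) α hχ (differentiable_pq b c α)

theorem differentiableAt_pertq {n : ℕ} {b : Fin N}
    {ψ : (Fin N → Fin N → ℂ) → (Fin N → ℂ)} {α : Fin N → Fin N → ℂ}
    (hψ : DifferentiableAt ℂ ψ α) :
    DifferentiableAt ℂ (fun α => pert n (Function.update α b 0) (ψ α)) α :=
  DifferentiableAt.comp (g := fun p : (Fin N → Fin N → ℂ) × (Fin N → ℂ) => pert n p.1 p.2)
    (f := fun α => (Function.update α b 0, ψ α)) α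
    (differentiable_pert n _) ((differentiable_upd b α).prodMk hψ)

theorem differentiableAt_dpertq {n : ℕ} {b : Fin N}
    {ψ : (Fin N → Fin N → ℂ) → (Fin N → ℂ)} {α : Fin N → Fin N → ℂ}
    (hψ : DifferentiableAt ℂ ψ α) (v : Fin N → ℂ) :
    DifferentiableAt ℂ (fun α => dpert n (Function.update α b 0) (ψ α) v) α :=
  DifferentiableAt.comp (g := fun p : (Fin N → Fin N → ℂ) × (Fin N → ℂ) => dpert n p.1 p.2 v)
    (f := fun α => (Function.update α b 0, ψ α)) α
    (differentiable_dpert n v _) ((differentiable_upd b α).prodMk hψ)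

theorem differentiableAt_vv {G H : ℂ × (Fin N → ℂ) → ℂ} {n : ℕ} {b c : Fin N}
    {χ : ℂ × (Fin N → ℂ) → ℂ × (Fin N → ℂ)} {α : Fin N → Fin N → ℂ}
    (hχ : DifferentiableAt ℂ χ (pq b c α)) (hG : AnalyticAt ℂ G (χ (pq b c α)))
    (hH : AnalyticAt ℂ H (χ (pq b c α))) (i : Fin N) :
    DifferentiableAt ℂ (fun α => vv G H n b c χ α i) α := by
  have hq : DifferentiableAt ℂ (fun α => χ (pq b c α)) α := differentiableAt_comp_pq hχ
  have h1 : DifferentiableAt ℂ (fun α => dz G (χ (pq b c α)) (Pi.single i 1)) α :=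
    DifferentiableAt.comp (g := fun q => dz G q (Pi.single i 1)) (f := fun α => χ (pq b c α)) α
      (differentiableAt_dz hG _) hq
  have h2 : DifferentiableAt ℂ (fun α => dz H (χ (pq b c α)) (Pi.single i 1)) α :=
    DifferentiableAt.comp (g := fun q => dz H q (Pi.single i 1)) (f := fun α => χ (pq b c α)) α
      (differentiableAt_dz hH _) hq
  have h3 : DifferentiableAt ℂ (fun α : Fin N → Fin N → ℂ => α b c) α := by fun_prop
  have h4 : DifferentiableAt ℂ
      (fun α => dpert n (Function.update α b 0) (χ (pq b c α)).2 (Pi.single i 1)) α :=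
    differentiableAt_dpertq (ψ := fun α => (χ (pq b c α)).2) hq.snd _
  exact (h3.fun_mul h1).fun_sub (h2.fun_add h4)

theorem differentiableAt_fmap {G H : ℂ × (Fin N → ℂ) → ℂ} {n : ℕ} {b c : Fin N}
    {χ : ℂ × (Fin N → ℂ) → ℂ × (Fin N → ℂ)} {α : Fin N → Fin N → ℂ}
    (hχ : DifferentiableAt ℂ χ (pq b c α)) (hG : AnalyticAt ℂ G (χ (pq b c α)))
    (hH : AnalyticAt ℂ H (χ (pq b c α))) : DifferentiableAt ℂ (fmap G H n b c χ) α := by
  have hq : DifferentiableAt ℂ (fun α => χ (pq b c α)) α := differentiableAt_comp_pq hχ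
  have hq2 : DifferentiableAt ℂ (fun α => (χ (pq b c α)).2) α := hq.snd
  have hHq : DifferentiableAt ℂ (fun α => H (χ (pq b c α))) α :=
    DifferentiableAt.comp (g := H) (f := fun α => χ (pq b c α)) α hH.differentiableAt hq
  have hp : DifferentiableAt ℂ
      (fun α => pert n (Function.update α b 0) (χ (pq b c α)).2) α :=
    differentiableAt_pertq (ψ := fun α => (χ (pq b c α)).2) hq2
  have hv := fun i => differentiableAt_vv (n := n) hχ hG hH i
  have hrow : DifferentiableAt ℂ (fun α => (fun i => if i = b then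
    -(H (χ (pq b c α)) + pert n (Function.update α b 0) (χ (pq b c α)).2) -
      ∑ j ∈ Finset.univ.erase b, vv G H n b c χ α j * (χ (pq b c α)).2 j
    else vv G H n b c χ α i)) α := by
    rw [differentiableAt_pi]
    intro i
    by_cases hi : i = b
    · simp only [hi, if_true]
      refine ((hHq.fun_add hp).fun_neg).fun_sub (DifferentiableAt.fun_sum fun j _ => ?_)
      exact (hv j).fun_mul (differentiableAt_pi.1 hq2 j)
    · simp only [hi, if_false]
      exact hv i
  rw [differentiableAt_pi]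
  intro k
  by_cases hk : k = b
  · subst hk
    unfold fmap
    simp only [Function.update_self]
    exact hrow
  · unfold fmap
    simp only [ne_eq, hk, not_false_eq_true, Function.update_of_ne]
    fun_prop

/-- the parameter belonging to a bad point -/
noncomputable def kap (a : Fin N → Fin N → ℂ) (b c : Fin N) (l : ℂ) (p : ℂ × (Fin N → ℂ)) :
    Fin N → Fin N → ℂ :=
  Function.update a b (fun i => if i = b then p.1 else if i = c then l else p.2 i)

theorem pq_kap {a : Fin N → Fin N → ℂ} {b c : Fin N} {l : ℂ} {p : ℂ × (Fin N → ℂ)}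
    (hp : p.2 b = 1) (hbc : b ≠ c) : pq b c (kap a b c l p) = (p.1, Function.update p.2 c 0) := by
  unfold pq kap
  refine Prod.ext ?_ ?_
  · simp
  · funext i
    by_cases hi : i = b
    · subst hi; simp [hbc, hp]
    · by_cases hic : i = c
      · subst hic; simp [hi]
      · simp [hi, hic]

theorem fmap_kap {G H : ℂ × (Fin N → ℂ) → ℂ} {n : ℕ} {a : Fin N → Fin N → ℂ} {b c : Fin N}
    {χ : ℂ × (Fin N → ℂ) → ℂ × (Fin N → ℂ)} {p : ℂ × (Fin N → ℂ)}
    (hbc : b ≠ c) (hp : p.2 b = 1) (hχ : χ (p.1, Function.update p.2 c 0) = p)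
    (hH : DifferentiableAt ℂ H p) (hbad : BadAt G H n a p)
    (hc : dz G p (Pi.single c 1) ≠ 0) :
    fmap G H n b c χ (kap a b c (dz (Ha H n a) p (Pi.single c 1) / dz G p (Pi.single c 1)) p)
      = a := by
  set l := dz (Ha H n a) p (Pi.single c 1) / dz G p (Pi.single c 1) with hl
  have hq : χ (pq b c (kap a b c l p)) = p := by rw [pq_kap hp hbc, hχ]
  have hk0 : kap a b c l p b c = l := by simp [kap, hbc.symm]
  have hku : Function.update (kap a b c l p) b 0 = Function.update a b 0 := by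
    unfold kap; simp
  have hrow : ∀ i, i ≠ b → vv G H n b c χ (kap a b c l p) i = a b i := by
    intro i hi
    unfold vv
    rw [hq, hk0, hku]
    have h1 := hbad.2.2 (Pi.single i 1) (Pi.single c 1)
    have h2 : dz (Ha H n a) p (Pi.single i 1) = l * dz G p (Pi.single i 1) := by
      rw [hl]; field_simp; linear_combination h1
    rw [dz_Ha hH] at h2
    have h3 : dpert n a p.2 (Pi.single i 1) =
        dpert n (Function.update a b 0) p.2 (Pi.single i 1) + a b i := by
      conv_lhs => rw [update_eq_add a b]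
      rw [dpert_add, dpert_single n b i _ _ hp hi]
    rw [h3] at h2
    linear_combination -h2
  have h4 : pert n a p.2 = pert n (Function.update a b 0) p.2 + ∑ i, a b i * p.2 i := by
    conv_lhs => rw [update_eq_add a b]
    rw [pert_add, pert_single n b _ _ hp]
  have h5 := hbad.2.1
  unfold Ha at h5
  rw [h4] at h5
  unfold fmap
  have h6 : (fun i => if i = b then
    -(H (χ (pq b c (kap a b c l p))) + pert n (Function.update (kap a b c l p) b 0)
        (χ (pq b c (kap a b c l p))).2) -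
      ∑ j ∈ Finset.univ.erase b, vv G H n b c χ (kap a b c l p) j *
        (χ (pq b c (kap a b c l p))).2 j
    else vv G H n b c χ (kap a b c l p) i) = a b := by
    funext i
    by_cases hi : i = b
    · simp only [hi, if_true]
      rw [hq, hku]
      rw [Finset.sum_congr rfl (g := fun j => a b j * p.2 j)
        (fun j hj => by rw [hrow j (Finset.ne_of_mem_erase hj)])]
      rw [← Finset.add_sum_erase _ _ (Finset.mem_univ b), hp] at h5
      linear_combination -h5
    · simp only [hi, if_false]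
      exact hrow i hi
  rw [h6]
  ext i j
  by_cases hi : i = b
  · subst hi; simp
  · simp [hi, kap]

/-- an injective endomorphism of a finite dimensional space, as an equivalence -/
theorem exists_equiv {W : Type*} [NormedAddCommGroup W] [NormedSpace ℂ W] [FiniteDimensional ℂ W]
    (L : W →L[ℂ] W) (hL : Function.Injective L) :
    ∃ e : W ≃L[ℂ] W, (e : W →L[ℂ] W) = L := by
  refine ⟨(LinearEquiv.ofInjectiveEndo L.toLinearMap hL).toContinuousLinearEquiv, ?_⟩
  ext w
  simp

/-- straightening of `{G = 0}` -/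
theorem exists_chart {G : ℂ × (Fin N → ℂ) → ℂ} {p0 : ℂ × (Fin N → ℂ)} {c : Fin N}
    (hG : AnalyticAt ℂ G p0) (hc : dz G p0 (Pi.single c 1) ≠ 0) :
    ∃ χ : ℂ × (Fin N → ℂ) → ℂ × (Fin N → ℂ),
      (∀ᶠ p in 𝓝 p0, χ (p.1, Function.update p.2 c (G p)) = p) ∧
      (∀ᶠ p in 𝓝 p0, DifferentiableAt ℂ χ (p.1, Function.update p.2 c (G p))) := by
  classical
  set Ψ : ℂ × (Fin N → ℂ) → ℂ × (Fin N → ℂ) := fun p => (p.1, Function.update p.2 c (G p))
    with hΨ
  have hup : ∀ᶠ p in 𝓝 p0, AnalyticAt ℂ G p := hG.eventually_analyticAt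
  have hΨd : ContDiffAt ℂ 1 Ψ p0 := by
    refine ContDiffAt.prodMk contDiffAt_fst ?_
    rw [contDiffAt_pi]
    intro i
    by_cases hi : i = c
    · subst hi
      simp only [Function.update_self]
      exact hG.contDiffAt
    · simp only [ne_eq, hi, not_false_eq_true, Function.update_of_ne]
      fun_prop
  have hder : HasFDerivAt Ψ (fderiv ℂ Ψ p0) p0 :=
    (hΨd.differentiableAt (by simp)).hasFDerivAt
  have hform : ∀ w, fderiv ℂ Ψ p0 w = (w.1, Function.update w.2 c (fderiv ℂ G p0 w)) := by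
    intro w
    have h1 : HasFDerivAt (fun p => (Ψ p).1) ((ContinuousLinearMap.fst ℂ ℂ (Fin N → ℂ)).comp
        (fderiv ℂ Ψ p0)) p0 := (hasFDerivAt_fst (p := Ψ p0)).comp p0 hder
    have h2 : HasFDerivAt (fun p => (Ψ p).2) ((ContinuousLinearMap.snd ℂ ℂ (Fin N → ℂ)).comp
        (fderiv ℂ Ψ p0)) p0 := (hasFDerivAt_snd (p := Ψ p0)).comp p0 hder
    refine Prod.ext ?_ ?_
    · have h3 : HasFDerivAt (fun p : ℂ × (Fin N → ℂ) => p.1)
        (ContinuousLinearMap.fst ℂ ℂ (Fin N → ℂ)) p0 := hasFDerivAt_fst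
      have h4 := h1.unique h3
      have h5 := congrArg (fun L => L w) h4
      simpa using h5
    · funext i
      have h6 : HasFDerivAt (fun p => (Ψ p).2 i) ((ContinuousLinearMap.proj i).comp
          ((ContinuousLinearMap.snd ℂ ℂ (Fin N → ℂ)).comp (fderiv ℂ Ψ p0))) p0 :=
        hasFDerivAt_pi'.1 h2 i
      by_cases hi : i = c
      · subst hi
        have h7 : HasFDerivAt (fun p => (Ψ p).2 i) (fderiv ℂ G p0) p0 := by
          have : (fun p => (Ψ p).2 i) = G := by funext p; simp [hΨ]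
          rw [this]; exact hG.differentiableAt.hasFDerivAt
        have h8 := congrArg (fun L => L w) (h6.unique h7)
        simpa using h8
      · have h7 : HasFDerivAt (fun p => (Ψ p).2 i) ((ContinuousLinearMap.proj i).comp
            (ContinuousLinearMap.snd ℂ ℂ (Fin N → ℂ))) p0 := by
          have : (fun p => (Ψ p).2 i) = fun p : ℂ × (Fin N → ℂ) => p.2 i := by
            funext p; simp [hΨ, hi]
          rw [this]
          exact ((ContinuousLinearMap.proj (R := ℂ) (φ := fun _ : Fin N => ℂ) i).comp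
            (ContinuousLinearMap.snd ℂ ℂ (Fin N → ℂ))).hasFDerivAt
        have h8 := congrArg (fun L => L w) (h6.unique h7)
        simpa [hi] using h8
  have hinj : Function.Injective (fderiv ℂ Ψ p0) := by
    rw [injective_iff_map_eq_zero]
    intro w hw
    rw [hform, Prod.mk_eq_zero] at hw
    obtain ⟨hw1, hw2⟩ := hw
    have h9 : ∀ i, i ≠ c → w.2 i = 0 := fun i hi => by
      have := congrFun hw2 i
      simpa [hi] using this
    have h10 : fderiv ℂ G p0 w = 0 := by
      have := congrFun hw2 c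
      simpa using this
    have h11 : w = w.2 c • ((0 : ℂ), (Pi.single c 1 : Fin N → ℂ)) := by
      refine Prod.ext ?_ ?_
      · simp [hw1]
      · funext i
        by_cases hi : i = c
        · subst hi; simp
        · simp [hi, h9 i hi]
    rw [h11, map_smul, smul_eq_mul] at h10
    have h12 : w.2 c = 0 := by
      rcases mul_eq_zero.1 h10 with h | h
      · exact h
      · exact absurd h hc
    rw [h11, h12, zero_smul]
  obtain ⟨e, he⟩ := exists_equiv (fderiv ℂ Ψ p0) hinj
  have hder' : HasFDerivAt Ψ (e : _ →L[ℂ] _) p0 := he ▸ hder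
  refine ⟨hΨd.localInverse hder' one_ne_zero, ?_, ?_⟩
  · exact (hΨd.hasStrictFDerivAt' hder' one_ne_zero).eventually_left_inverse
  · have h13 : ContDiffAt ℂ 1 (hΨd.localInverse hder' one_ne_zero) (Ψ p0) :=
      hΨd.to_localInverse hder' one_ne_zero
    have h14 : ∀ᶠ q in 𝓝 (Ψ p0), ContDiffAt ℂ 1 (hΨd.localInverse hder' one_ne_zero) q :=
      h13.eventually (by simp)
    have h15 := hΨd.continuousAt.eventually h14
    filter_upwards [h15] with p hp
    exact hp.differentiableAt (by simp)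

theorem isAddHaar_pi (N : ℕ) : (volume : Measure (Fin N → Fin N → ℂ)).IsAddHaarMeasure := by
  have h : (volume : Measure (Fin N → ℂ)).IsAddHaarMeasure := by
    rw [volume_pi]; infer_instance
  have h' : ∀ i : Fin N, ((fun _ : Fin N => (volume : Measure (Fin N → ℂ))) i).IsAddHaarMeasure :=
    fun _ => h
  rw [volume_pi]
  exact MeasureTheory.Measure.pi.isAddHaarMeasure _

theorem local_sard {D : Set ℂ} (hD : IsOpen D) {G H : ℂ × (Fin N → ℂ) → ℂ} {n : ℕ}
    (hG : AnalyticOnNhd ℂ G (D ×ˢ univ)) (hH : AnalyticOnNhd ℂ H (D ×ˢ univ))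
    {p0 : ℂ × (Fin N → ℂ)} (hp0 : p0.1 ∈ D) {b c : Fin N} (hbc : b ≠ c)
    (hc : dz G p0 (Pi.single c 1) ≠ 0) :
    ∃ O ∈ 𝓝 p0, ∃ Z : Set (Fin N → Fin N → ℂ), volume Z = 0 ∧ ∀ a ∉ Z, ∀ p ∈ O, p.2 b = 1 →
      BadAt G H n a p → ∀ᶠ p' in 𝓝 p, p'.2 b = 1 → BadAt G H n a p' → p'.1 = p.1 := by
  classical
  have hGan : ∀ p : ℂ × (Fin N → ℂ), p.1 ∈ D → AnalyticAt ℂ G p := fun p hp =>
    hG p ⟨hp, mem_univ _⟩
  have hHan : ∀ p : ℂ × (Fin N → ℂ), p.1 ∈ D → AnalyticAt ℂ H p := fun p hp =>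
    hH p ⟨hp, mem_univ _⟩
  obtain ⟨χ, hχ1, hχ2⟩ := exists_chart (hGan p0 hp0) hc
  have hD' : ∀ᶠ p : ℂ × (Fin N → ℂ) in 𝓝 p0, p.1 ∈ D :=
    continuousAt_fst.eventually (hD.mem_nhds hp0)
  have hc' : ∀ᶠ p in 𝓝 p0, dz G p (Pi.single c 1) ≠ 0 :=
    (differentiableAt_dz (hGan p0 hp0) _).continuousAt.eventually_ne hc
  have hall := (hχ1.and hχ2).and (hD'.and hc')
  obtain ⟨O, hO, hOo, hp0O⟩ := _root_.mem_nhds_iff.1 hall
  set f := fmap G H n b c χ with hf
  set s : Set (Fin N → Fin N → ℂ) := {α | (∃ p ∈ O, G p = 0 ∧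
    pq b c α = (p.1, Function.update p.2 c (G p))) ∧
    ((fderiv ℂ f α).restrictScalars ℝ).det = 0} with hs
  have hdiff : ∀ α, (∃ p ∈ O, G p = 0 ∧ pq b c α = (p.1, Function.update p.2 c (G p))) →
      DifferentiableAt ℂ f α := by
    rintro α ⟨p, hpO, _, hpα⟩
    obtain ⟨⟨h1, h2⟩, h3, _⟩ := hO hpO
    have h4 : χ (pq b c α) = p := by rw [hpα, h1]
    refine differentiableAt_fmap ?_ ?_ ?_
    · rw [hpα]; exact h2
    · rw [h4]; exact hGan p h3
    · rw [h4]; exact hHan p h3
  refine ⟨O, hOo.mem_nhds hp0O, f '' s, ?_, ?_⟩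
  · have := isAddHaar_pi N
    refine addHaar_image_eq_zero_of_det_fderivWithin_eq_zero volume
      (f' := fun α => (fderiv ℂ f α).restrictScalars ℝ) ?_ ?_
    · intro α hα
      exact ((hdiff α hα.1).hasFDerivAt.restrictScalars ℝ).hasFDerivWithinAt
    · intro α hα
      exact hα.2
  · intro a ha p hpO hpb hbad
    obtain ⟨⟨h1, h2⟩, h3, h4⟩ := hO hpO
    set L : ℂ × (Fin N → ℂ) → ℂ := fun p =>
      dz (Ha H n a) p (Pi.single c 1) / dz G p (Pi.single c 1) with hL
    set κ : ℂ × (Fin N → ℂ) → Fin N → Fin N → ℂ := fun p => kap a b c (L p) p with hκ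
    have hfix : ∀ p' ∈ O, p'.2 b = 1 → BadAt G H n a p' → f (κ p') = a := by
      intro p' hp'O hp'b hbad'
      obtain ⟨⟨h1', h2'⟩, h3', h4'⟩ := hO hp'O
      refine fmap_kap hbc hp'b ?_ (hHan p' h3').differentiableAt hbad' h4'
      rw [hbad'.1] at h1'
      exact h1'
    have hex : ∃ p' ∈ O, G p' = 0 ∧ pq b c (κ p) = (p'.1, Function.update p'.2 c (G p')) :=
      ⟨p, hpO, hbad.1, by rw [hbad.1]; exact pq_kap hpb hbc⟩
    have hdet : ((fderiv ℂ f (κ p)).restrictScalars ℝ).det ≠ 0 := by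
      intro h0
      exact ha ⟨κ p, ⟨hex, h0⟩, hfix p hpO hpb hbad⟩
    have hder : HasFDerivAt f ((fderiv ℂ f (κ p)).restrictScalars ℝ) (κ p) :=
      (hdiff _ hex).hasFDerivAt.restrictScalars ℝ
    have hne := hder.eventually_ne (c := a)
      ⟨_, (ContinuousLinearMap.toContinuousLinearEquivOfDetNeZero _ hdet).antilipschitz⟩
    rw [eventually_nhdsWithin_iff] at hne
    have hLc : ContinuousAt L p := by
      refine ContinuousAt.div ?_ (differentiableAt_dz (hGan p h3) _).continuousAt h4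
      have : ∀ᶠ q in 𝓝 p, dz (Ha H n a) q (Pi.single c 1) =
          dz H q (Pi.single c 1) + dpert n a q.2 (Pi.single c 1) := by
        have hD'' : ∀ᶠ q : ℂ × (Fin N → ℂ) in 𝓝 p, q.1 ∈ D :=
          continuousAt_fst.eventually (hD.mem_nhds h3)
        filter_upwards [hD''] with q hq
        exact dz_Ha (hHan q hq).differentiableAt _
      refine ContinuousAt.congr ?_ (this.mono fun q hq => hq.symm)
      refine (differentiableAt_dz (hHan p h3) _).continuousAt.add ?_
      have h5 : Continuous (fun q : ℂ × (Fin N → ℂ) => dpert n a q.2 (Pi.single c 1)) := by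
        unfold dpert
        fun_prop
      exact h5.continuousAt
    have hκc : ContinuousAt κ p := by
      rw [continuousAt_pi]
      intro i
      by_cases hi : i = b
      · subst hi
        simp only [hκ, kap, Function.update_self]
        rw [continuousAt_pi]
        intro j
        by_cases hj : j = i
        · simp only [hj, if_true]; fun_prop
        · simp only [hj, if_false]
          by_cases hjc : j = c
          · simp only [hjc, if_true]; exact hLc
          · simp only [hjc, if_false]; fun_prop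
      · simp only [hκ, kap, ne_eq, hi, not_false_eq_true, Function.update_of_ne]
        fun_prop
    have hev := hκc.eventually hne
    filter_upwards [hev, hOo.mem_nhds hpO] with p' hp' hp'O hp'b hbad'
    by_contra hcon
    have h6 : κ p' ≠ κ p := by
      intro h7
      apply hcon
      have := congrFun (congrFun h7 b) b
      simpa [hκ, kap] using this
    exact hp' h6 (hfix p' hp'O hp'b hbad')

/-! ### homogeneity -/

theorem hasDerivAt_line {F : ℂ × (Fin N → ℂ) → ℂ} {t : ℂ} {z : Fin N → ℂ}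
    (hF : DifferentiableAt ℂ F (t, z)) (v : Fin N → ℂ) :
    HasDerivAt (fun ε : ℂ => F (t, z + ε • v)) (dz F (t, z) v) 0 := by
  have h1 : HasDerivAt (fun ε : ℂ => (t, z + ε • v)) ((0 : ℂ), v) 0 := by
    refine HasDerivAt.prodMk (hasDerivAt_const _ _) ?_
    have := ((hasDerivAt_id (0 : ℂ)).smul_const v).const_add z
    simpa using this
  have h2 : HasFDerivAt F (fderiv ℂ F (t, z)) ((fun ε : ℂ => (t, z + ε • v)) 0) := by
    simpa using hF.hasFDerivAt
  have := h2.comp_hasDerivAt (0 : ℂ) h1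
  exact this

theorem dz_smul (F : ℂ × (Fin N → ℂ) → ℂ) (p : ℂ × (Fin N → ℂ)) (s : ℂ) (v : Fin N → ℂ) :
    dz F p (s • v) = s * dz F p v := by
  unfold dz
  rw [show ((0 : ℂ), s • v) = s • ((0 : ℂ), v) by simp, map_smul, smul_eq_mul]

theorem dz_eq_sum (F : ℂ × (Fin N → ℂ) → ℂ) (p : ℂ × (Fin N → ℂ)) (v : Fin N → ℂ) :
    dz F p v = ∑ i, v i * dz F p (Pi.single i 1) := by
  unfold dz
  have h : ((0 : ℂ), v) = ∑ i, v i • ((0 : ℂ), (Pi.single i 1 : Fin N → ℂ)) := by
    refine Prod.ext ?_ ?_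
    · simp [Prod.fst_sum]
    · funext j
      simp only [Prod.snd_sum, Finset.sum_apply, Prod.smul_snd, Pi.smul_apply, smul_eq_mul]
      rw [Finset.sum_eq_single j]
      · simp
      · intro i _ hi; simp [hi.symm]
      · simp
  rw [h, map_sum]
  refine Finset.sum_congr rfl fun i _ => ?_
  rw [map_smul, smul_eq_mul]

theorem dz_homog {F : ℂ × (Fin N → ℂ) → ℂ} {k : ℕ} {t : ℂ} {z : Fin N → ℂ} {s : ℂ}
    (h1 : DifferentiableAt ℂ F (t, z)) (h2 : DifferentiableAt ℂ F (t, s • z))
    (hF : ∀ (c : ℂ) (w : Fin N → ℂ), F (t, c • w) = c ^ k * F (t, w)) (v : Fin N → ℂ) :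
    s * dz F (t, s • z) v = s ^ k * dz F (t, z) v := by
  have h3 := hasDerivAt_line h2 (s • v)
  have h4 := (hasDerivAt_line h1 v).const_mul (s ^ k)
  have h5 : (fun ε : ℂ => F (t, s • z + ε • s • v)) = fun ε => s ^ k * F (t, z + ε • v) := by
    funext ε
    rw [← hF, smul_add, smul_comm ε s v]
  rw [h5] at h3
  rw [← dz_smul]
  exact h3.unique h4

theorem euler {F : ℂ × (Fin N → ℂ) → ℂ} {k : ℕ} {t : ℂ} {z : Fin N → ℂ}
    (h1 : DifferentiableAt ℂ F (t, z))
    (hF : ∀ (c : ℂ) (w : Fin N → ℂ), F (t, c • w) = c ^ k * F (t, w)) (h0 : F (t, z) = 0) :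
    dz F (t, z) z = 0 := by
  have h3 := hasDerivAt_line h1 z
  have h5 : (fun ε : ℂ => F (t, z + ε • z)) = fun _ => 0 := by
    funext ε
    have : z + ε • z = (1 + ε) • z := by rw [add_smul, one_smul]
    rw [this, hF, h0, mul_zero]
  rw [h5] at h3
  exact h3.unique (hasDerivAt_const _ _)

theorem pert_smul {n : ℕ} (hn : 1 ≤ n) (a : Fin N → Fin N → ℂ) (s : ℂ) (z : Fin N → ℂ) :
    pert n a (s • z) = s ^ n * pert n a z := by
  unfold pert
  rw [Finset.mul_sum]
  refine Finset.sum_congr rfl fun b _ => ?_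
  rw [Finset.mul_sum]
  refine Finset.sum_congr rfl fun i _ => ?_
  obtain ⟨m, rfl⟩ : ∃ m, n = m + 1 := ⟨n - 1, by omega⟩
  simp only [Pi.smul_apply, smul_eq_mul, Nat.add_sub_cancel]
  ring

section main

variable {D : Set ℂ} {G H : ℂ × (Fin N → ℂ) → ℂ} {n d : ℕ}

theorem differentiableAt_Ha {a : Fin N → Fin N → ℂ} {p : ℂ × (Fin N → ℂ)}
    (hH : DifferentiableAt ℂ H p) : DifferentiableAt ℂ (Ha H n a) p := by
  unfold Ha
  exact hH.fun_add ((hasFDerivAt_pert n a p.2).1.comp p differentiableAt_snd)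

theorem badAt_smul (hn : 1 ≤ n) {t : ℂ}
    (hG : ∀ z, DifferentiableAt ℂ G (t, z)) (hH : ∀ z, DifferentiableAt ℂ H (t, z))
    (homG : ∀ (s : ℂ) z, G (t, s • z) = s ^ d * G (t, z))
    (homH : ∀ (s : ℂ) z, H (t, s • z) = s ^ n * H (t, z)) {a : Fin N → Fin N → ℂ}
    {z : Fin N → ℂ} {s : ℂ} (hs : s ≠ 0) (hbad : BadAt G H n a (t, z)) :
    BadAt G H n a (t, s • z) := by
  have homHa : ∀ (c : ℂ) (w : Fin N → ℂ), Ha H n a (t, c • w) = c ^ n * Ha H n a (t, w) := by
    intro c w
    unfold Ha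
    simp only
    rw [homH, pert_smul hn, mul_add]
  refine ⟨by rw [homG, hbad.1, mul_zero], by rw [homHa, hbad.2.1, mul_zero], fun v w => ?_⟩
  have h1 := fun v => dz_homog (v := v) (s := s) (hG z) (hG _) homG
  have h2 := fun v => dz_homog (v := v) (s := s) (differentiableAt_Ha (n := n) (a := a) (hH z))
    (differentiableAt_Ha (hH _)) homHa
  have h3 := hbad.2.2 v w
  have h4 : s * s * (dz (Ha H n a) (t, s • z) v * dz G (t, s • z) w) =
      s * s * (dz (Ha H n a) (t, s • z) w * dz G (t, s • z) v) := by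
    calc _ = (s * dz (Ha H n a) (t, s • z) v) * (s * dz G (t, s • z) w) := by ring
      _ = (s ^ n * dz (Ha H n a) (t, z) v) * (s ^ d * dz G (t, z) w) := by rw [h1, h2]
      _ = s ^ n * s ^ d * (dz (Ha H n a) (t, z) v * dz G (t, z) w) := by ring
      _ = s ^ n * s ^ d * (dz (Ha H n a) (t, z) w * dz G (t, z) v) := by rw [h3]
      _ = (s ^ n * dz (Ha H n a) (t, z) w) * (s ^ d * dz G (t, z) v) := by ring
      _ = (s * dz (Ha H n a) (t, s • z) w) * (s * dz G (t, s • z) v) := by rw [h1, h2]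
      _ = _ := by ring
  exact mul_left_cancel₀ (mul_ne_zero hs hs) h4

theorem continuousAt_Ha {a : Fin N → Fin N → ℂ} {p : ℂ × (Fin N → ℂ)}
    (hH : AnalyticAt ℂ H p) : ContinuousAt (Ha H n a) p :=
  (differentiableAt_Ha hH.differentiableAt).continuousAt

theorem continuousAt_dz_Ha {a : Fin N → Fin N → ℂ} {p : ℂ × (Fin N → ℂ)}
    (hH : AnalyticAt ℂ H p) (v : Fin N → ℂ) : ContinuousAt (fun q => dz (Ha H n a) q v) p := by
  have : ∀ᶠ q in 𝓝 p, dz (Ha H n a) q v = dz H q v + dpert n a q.2 v := by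
    filter_upwards [hH.eventually_analyticAt] with q hq
    exact dz_Ha hq.differentiableAt _
  refine ContinuousAt.congr ?_ (this.mono fun q hq => hq.symm)
  refine (differentiableAt_dz hH _).continuousAt.add ?_
  have h5 : Continuous (fun q : ℂ × (Fin N → ℂ) => dpert n a q.2 v) := by
    unfold dpert
    fun_prop
  exact h5.continuousAt

/-- ROW R6 (A): for almost every perturbation the bad parameters `t` are discrete. -/
theorem generic (hD : IsOpen D) (hn : 1 ≤ n)
    (hG : AnalyticOnNhd ℂ G (D ×ˢ univ)) (hH : AnalyticOnNhd ℂ H (D ×ˢ univ))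
    (homG : ∀ t ∈ D, ∀ (s : ℂ) z, G (t, s • z) = s ^ d * G (t, z))
    (homH : ∀ t ∈ D, ∀ (s : ℂ) z, H (t, s • z) = s ^ n * H (t, z))
    (reg : ∀ t ∈ D, ∀ z, z ≠ 0 → G (t, z) = 0 → ∃ v, dz G (t, z) v ≠ 0) :
    ∀ᵐ a : Fin N → Fin N → ℂ, ∀ K ⊆ D, IsCompact K →
      {t | t ∈ K ∧ ∃ z, z ≠ 0 ∧ BadAt G H n a (t, z)}.Finite := by
  classical
  have hGan : ∀ p : ℂ × (Fin N → ℂ), p.1 ∈ D → AnalyticAt ℂ G p := fun p hp =>
    hG p ⟨hp, mem_univ _⟩
  have hHan : ∀ p : ℂ × (Fin N → ℂ), p.1 ∈ D → AnalyticAt ℂ H p := fun p hp =>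
    hH p ⟨hp, mem_univ _⟩
  -- local statement at every point of the zero set
  have hloc : ∀ b : Fin N, ∀ p ∈ {p : ℂ × (Fin N → ℂ) | p.1 ∈ D ∧ p.2 b = 1 ∧ G p = 0},
      ∃ O ∈ 𝓝 p, ∃ Z : Set (Fin N → Fin N → ℂ), volume Z = 0 ∧ ∀ a ∉ Z, ∀ q ∈ O, q.2 b = 1 →
      BadAt G H n a q → ∀ᶠ p' in 𝓝 q, p'.2 b = 1 → BadAt G H n a p' → p'.1 = q.1 := by
    rintro b p ⟨hpD, hpb, hp0⟩
    have hz : p.2 ≠ 0 := by
      intro h; rw [h] at hpb; simp at hpb
    have h1 : ∃ c, b ≠ c ∧ dz G p (Pi.single c 1) ≠ 0 := by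
      by_contra hcon
      push Not at hcon
      have h2 : dz G p p.2 = 0 :=
        euler (t := p.1) (z := p.2) (hGan p hpD).differentiableAt (homG p.1 hpD) hp0
      rw [dz_eq_sum, Finset.sum_eq_single b] at h2
      · rw [hpb, one_mul] at h2
        obtain ⟨v, hv⟩ := reg p.1 hpD p.2 hz hp0
        apply hv
        rw [dz_eq_sum]
        refine Finset.sum_eq_zero fun i _ => ?_
        by_cases hi : b = i
        · subst hi
          have : dz G (p.1, p.2) (Pi.single b 1) = 0 := h2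
          rw [this, mul_zero]
        · have : dz G (p.1, p.2) (Pi.single i 1) = 0 := hcon i hi
          rw [this, mul_zero]
      · intro i _ hi
        rw [hcon i (Ne.symm hi), mul_zero]
      · simp
    obtain ⟨c, hbc, hc⟩ := h1
    exact local_sard hD hG hH hpD hbc hc
  choose! O hO Z hZ hiso using hloc
  have hcov : ∀ b : Fin N, ∃ C ⊆ {p : ℂ × (Fin N → ℂ) | p.1 ∈ D ∧ p.2 b = 1 ∧ G p = 0},
      C.Countable ∧ {p : ℂ × (Fin N → ℂ) | p.1 ∈ D ∧ p.2 b = 1 ∧ G p = 0} ⊆ ⋃ p ∈ C, O b p :=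
    fun b => TopologicalSpace.countable_cover_nhdsWithin
      fun p hp => mem_nhdsWithin_of_mem_nhds (hO b p hp)
  choose C hCsub hCc hCcov using hcov
  have hnull : volume (⋃ b, ⋃ p ∈ C b, Z b p) = 0 := by
    rw [measure_iUnion_null_iff]
    intro b
    rw [measure_biUnion_null_iff (hCc b)]
    intro p hp
    exact hZ b p (hCsub b hp)
  rw [ae_iff]
  refine measure_mono_null ?_ hnull
  intro a ha
  by_contra hcon
  apply ha
  simp only [mem_iUnion, not_exists] at hcon
  intro K hK hKc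
  -- compact sets of normalised bad points
  set S : Fin N → Set (Fin N → ℂ) := fun b => {z | z b = 1 ∧ ∀ i, z i ∈ closedBall (0 : ℂ) 1}
    with hS
  have hScomp : ∀ b, IsCompact (S b) := by
    intro b
    have h1 : IsCompact (Set.pi univ fun _ : Fin N => closedBall (0 : ℂ) 1) :=
      isCompact_univ_pi fun _ => isCompact_closedBall 0 1
    have h2 : IsClosed {z : Fin N → ℂ | z b = 1} :=
      isClosed_eq (continuous_apply b) continuous_const
    have h3 := h1.inter_right h2
    convert h3 using 1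
    ext z
    simp only [hS, Set.mem_ofPred_eq, mem_inter_iff, Set.mem_pi, mem_univ, true_imp_iff]
    tauto
  set B : Fin N → Set (ℂ × (Fin N → ℂ)) := fun b => {p ∈ K ×ˢ S b | BadAt G H n a p} with hB
  have hBfin : ∀ b, (Prod.fst '' B b).Finite := by
    intro b
    have hKS : IsCompact (K ×ˢ S b) := hKc.prod (hScomp b)
    have hBc : IsCompact (B b) := by
      have h1 : IsClosed {x : ↥(K ×ˢ S b) | BadAt G H n a x.1} := by
        have hcg : Continuous fun x : ↥(K ×ˢ S b) => G x.1 := by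
          rw [continuous_iff_continuousAt]
          intro x
          exact (hGan x.1 (hK x.2.1)).continuousAt.comp continuousAt_subtype_val
        have hch : Continuous fun x : ↥(K ×ˢ S b) => Ha H n a x.1 := by
          rw [continuous_iff_continuousAt]
          intro x
          exact (continuousAt_Ha (hHan x.1 (hK x.2.1))).comp continuousAt_subtype_val
        have hcdg : ∀ v, Continuous fun x : ↥(K ×ˢ S b) => dz G x.1 v := by
          intro v
          rw [continuous_iff_continuousAt]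
          intro x
          exact (differentiableAt_dz (hGan x.1 (hK x.2.1)) v).continuousAt.comp
            continuousAt_subtype_val
        have hcdh : ∀ v, Continuous fun x : ↥(K ×ˢ S b) => dz (Ha H n a) x.1 v := by
          intro v
          rw [continuous_iff_continuousAt]
          intro x
          exact (continuousAt_dz_Ha (hHan x.1 (hK x.2.1)) v).comp
            continuousAt_subtype_val
        have hset : {x : ↥(K ×ˢ S b) | BadAt G H n a x.1} = {x | G x.1 = 0} ∩
            ({x | Ha H n a x.1 = 0} ∩ ⋂ v, ⋂ w, {x | dz (Ha H n a) x.1 v * dz G x.1 w =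
              dz (Ha H n a) x.1 w * dz G x.1 v}) := by
          ext x
          simp only [BadAt, Set.mem_ofPred_eq, mem_inter_iff, mem_iInter]
        rw [hset]
        refine (isClosed_eq hcg continuous_const).inter
          ((isClosed_eq hch continuous_const).inter ?_)
        exact isClosed_iInter fun v => isClosed_iInter fun w =>
          isClosed_eq ((hcdh v).mul (hcdg w)) ((hcdh w).mul (hcdg v))
      have h2 : CompactSpace ↥(K ×ˢ S b) := isCompact_iff_compactSpace.1 hKS
      have h3 := (h1.isCompact).image continuous_subtype_val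
      convert h3 using 1
      ext p
      simp only [hB, Set.mem_ofPred_eq, mem_image, Subtype.exists, exists_and_right, exists_eq_right]
      constructor
      · rintro ⟨h4, h5⟩; exact ⟨h4, h5⟩
      · rintro ⟨h4, h5⟩; exact ⟨h4, h5⟩
    have hnb : ∀ q ∈ B b, {p' : ℂ × (Fin N → ℂ) | p'.2 b = 1 → BadAt G H n a p' → p'.1 = q.1}
        ∈ 𝓝 q := by
      intro q hq
      have hqA : q ∈ {p : ℂ × (Fin N → ℂ) | p.1 ∈ D ∧ p.2 b = 1 ∧ G p = 0} :=
        ⟨hK hq.1.1, hq.1.2.1, hq.2.1⟩
      obtain ⟨p, hpC, hqO⟩ := mem_iUnion₂.1 (hCcov b hqA)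
      exact hiso b p (hCsub b hpC) a (hcon b p hpC) q hqO hq.1.2.1 hq.2
    obtain ⟨F, hF1, hF2⟩ := hBc.elim_nhds_subcover
      (fun q => {p' : ℂ × (Fin N → ℂ) | p'.2 b = 1 → BadAt G H n a p' → p'.1 = q.1}) hnb
    refine (F.image Prod.fst).finite_toSet.subset ?_
    rintro t ⟨p, hp, rfl⟩
    obtain ⟨q, hqF, hq⟩ := mem_iUnion₂.1 (hF2 hp)
    have h1 : p.1 = q.1 := hq hp.1.2.1 hp.2
    rw [h1]
    exact Finset.mem_coe.2 (Finset.mem_image_of_mem _ hqF)
  refine (Set.finite_iUnion hBfin).subset ?_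
  rintro t ⟨htK, z, hz, hbad⟩
  have hne : (Finset.univ : Finset (Fin N)).Nonempty := by
    obtain ⟨i, _⟩ := Function.ne_iff.1 hz
    exact ⟨i, Finset.mem_univ _⟩
  obtain ⟨b, -, hb⟩ := Finset.exists_max_image Finset.univ (fun i => ‖z i‖) hne
  have hzb : z b ≠ 0 := by
    intro h0
    apply hz
    funext i
    have := hb i (Finset.mem_univ _)
    rw [h0, norm_zero] at this
    exact norm_le_zero_iff.1 this
  rw [mem_iUnion]
  refine ⟨b, (t, (z b)⁻¹ • z), ⟨⟨htK, ?_, fun i => ?_⟩, ?_⟩, rfl⟩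
  · simp [hzb]
  · rw [mem_closedBall_zero_iff]
    simp only [Pi.smul_apply, smul_eq_mul, norm_mul, norm_inv]
    rw [inv_mul_le_iff₀ (norm_pos_iff.2 hzb), mul_one]
    exact hb i (Finset.mem_univ _)
  · exact badAt_smul hn (fun z => (hGan (t, z) (hK htK)).differentiableAt)
      (fun z => (hHan (t, z) (hK htK)).differentiableAt) (homG t (hK htK)) (homH t (hK htK))
      (inv_ne_zero hzb) hbad

end main

end Vale.Agent.P298.H217.Gen
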